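import Vale.Agent.P207.N4.H391.RicM
import Vale.Agent.P207.N4.H709.RelR
import Vale.Agent.P207.H686.Rel

/-!
# P207: relative pinching of the Jacobi operator implies relative pinching of `U`
-/

open Set Filter Topology Metric MeasureTheory

noncomputable section

namespace Vale.Agent.P207.N4.H391.RelK

open Vale.Agent.P207.N3

variable [Dim]

variable {Γ X B : Type} [Group Γ] [MetricSpace X] [ProperSpace X] [MulAction Γ X]
  [IsIsometricSMul Γ X] [TopologicalSpace B] [CompactSpace B] [T2Space B] [MulAction Γ B]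
  [ContinuousConstSMul Γ B] {L : Leaf Γ X B}

/-- the least eigenvalue of `-K` -/
def fmin (M : Metr L) (x : X) : ℝ := sInf ((fun v : E2 => -inner ℝ (M.K x v) v) '' sphere 0 1)

theorem fmin_cont (M : Metr L) (hK : Continuous M.K) : Continuous (fmin M) := by
  have h := (isCompact_sphere (0 : E2) 1).continuous_sInf
    (f := fun (x : X) (v : E2) => -inner ℝ (M.K x v) v) (by
      have h1 : Continuous fun q : X × E2 => M.K q.1 q.2 :=
        (hK.comp continuous_fst).clm_apply continuous_snd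
      exact (h1.inner continuous_snd).neg)
  exact h

theorem bdd (M : Metr L) (x : X) :
    BddBelow ((fun v : E2 => -inner ℝ (M.K x v) v) '' sphere 0 1) :=
  ((isCompact_sphere (0 : E2) 1).image (by fun_prop)).bddBelow

theorem fmin_le (M : Metr L) (x : X) (v : E2) :
    fmin M x * ‖v‖ ^ 2 ≤ -inner ℝ (M.K x v) v := by
  rcases eq_or_ne v 0 with rfl | hv
  · simp
  · have hn : 0 < ‖v‖ := norm_pos_iff.2 hv
    have h1 : fmin M x ≤ -inner ℝ (M.K x (‖v‖⁻¹ • v)) (‖v‖⁻¹ • v) :=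
      csInf_le (bdd M x) ⟨‖v‖⁻¹ • v, by
        rw [mem_sphere_zero_iff_norm, norm_smul, norm_inv, norm_norm,
          inv_mul_cancel₀ hn.ne'], rfl⟩
    rw [map_smul, inner_smul_left, inner_smul_right] at h1
    have h2 := mul_le_mul_of_nonneg_right h1 (sq_nonneg ‖v‖)
    refine h2.trans (le_of_eq ?_)
    simp only [conj_trivial]
    field_simp

theorem le_fmin [Nontrivial E2] (M : Metr L) (x : X) {c : ℝ}
    (h : ∀ v, c * ‖v‖ ^ 2 ≤ -inner ℝ (M.K x v) v) : c ≤ fmin M x := by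
  refine le_csInf ((NormedSpace.sphere_nonempty.2 zero_le_one).image _) ?_
  rintro _ ⟨v, hv, rfl⟩
  have h1 := h v
  rw [mem_sphere_zero_iff_norm] at hv
  rwa [hv, one_pow, mul_one] at h1

/-- **Relative pinching of `-K` implies relative pinching of `U`.** -/
theorem relM_of [Nontrivial E2] (M : Metr L) (hKc : Continuous M.K) {a b : ℝ}
    (ha : 0 < a) (hab : a ≤ b) (hlo : ∀ x v, a * ‖v‖ ^ 2 ≤ inner ℝ (M.U x v) v)
    (hhi : ∀ x v, inner ℝ (M.U x v) v ≤ b * ‖v‖ ^ 2)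
    (hK : ∀ x v, a ^ 2 * ‖v‖ ^ 2 ≤ -inner ℝ (M.K x v) v ∧
      -inner ℝ (M.K x v) v ≤ b ^ 2 * ‖v‖ ^ 2) {ρ : ℝ} (hρ : 1 ≤ ρ)
    (hr : ∀ x, ∃ c : ℝ, 0 < c ∧ ∀ v, c * ‖v‖ ^ 2 ≤ -inner ℝ (M.K x v) v ∧
      -inner ℝ (M.K x v) v ≤ ρ ^ 2 * c * ‖v‖ ^ 2) : RelM M ρ := by
  obtain ⟨C, hC⟩ := Vale.Agent.P207.H686.Rel.rel_int (f0 := a ^ 2) (f1 := b ^ 2)
    (A := ρ ^ 2) ha (ha.trans_le hab) (by positivity) (by nlinarith) (by nlinarith)
  refine ⟨C, fun x => ?_⟩
  obtain ⟨v0, hv0⟩ : ∃ v : E2, ‖v‖ = 1 := by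
    obtain ⟨v, hv⟩ := NormedSpace.sphere_nonempty (x := (0 : E2)) (r := 1) |>.2 zero_le_one
    exact ⟨v, by simpa using hv⟩
  have hφ : Continuous fun s => L.φ s x := by
    first
      | exact L.φ_cont.comp (continuous_id.prodMk continuous_const)
      | exact L.φ_cont'' x
  obtain ⟨p, P, hpc, hPc, hp0, hP0, hp, hP, -, -, hint⟩ := hC (fun s => fmin M (L.φ s x))
    ((fmin_cont M hKc).comp hφ) (fun s => le_fmin M _ fun v => (hK _ v).1) (fun s => by
      have h1 := fmin_le M (L.φ s x) v0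
      have h2 := (hK (L.φ s x) v0).2
      rw [hv0] at h1 h2
      linarith)
  refine ⟨p, P, hpc, hPc, fun s hs v => ?_, fun t ht => ?_⟩
  · refine RicM.between M x (f := fun s => fmin M (L.φ s x))
      (F := fun s => ρ ^ 2 * fmin M (L.φ s x)) (fun s _ v => ⟨fmin_le M _ v, ?_⟩) hp hP ?_ hs v
    · obtain ⟨c, hc, h⟩ := hr (L.φ s x)
      refine (h v).2.trans ?_
      have h1 : c ≤ fmin M (L.φ s x) := le_fmin M _ fun v => (h v).1
      exact mul_le_mul_of_nonneg_right (mul_le_mul_of_nonneg_left h1 (sq_nonneg ρ))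
        (sq_nonneg _)
    · intro v
      rw [hp0, hP0]
      exact ⟨hlo x v, hhi x v⟩
  · have h1 := hint t ht
    rwa [Real.sqrt_sq (by linarith)] at h1

end Vale.Agent.P207.N4.H391.RelK
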