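import Vale.Agent.P207.H391.RicE
import Vale.Agent.P207.N4.H77.Rates

/-!
# P207: comparison of the unstable Riccati solution with scalar solutions along an orbit
-/

open Set Filter Topology Metric MeasureTheory

noncomputable section

namespace Vale.Agent.P207.N4.H391.RicM

open Vale.Agent.P207.N3
open Vale.Agent.P207.H391.RicE

variable [Dim]

variable {Γ X B : Type} [Group Γ] [MetricSpace X] [ProperSpace X] [MulAction Γ X]
  [IsIsometricSMul Γ X] [TopologicalSpace B] [CompactSpace B] [T2Space B] [MulAction Γ B]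
  [ContinuousConstSMul Γ B] {L : Leaf Γ X B}

/-- **`f ≤ -K ≤ F` along the orbit of `x` implies `p ≤ U ≤ P`.** -/
theorem between (M : Metr L) (x : X) {f F p P : ℝ → ℝ}
    (hK : ∀ s, 0 ≤ s → ∀ v, f s * ‖v‖ ^ 2 ≤ -inner ℝ (M.K (L.φ s x) v) v ∧
      -inner ℝ (M.K (L.φ s x) v) v ≤ F s * ‖v‖ ^ 2)
    (hp : ∀ s, 0 ≤ s → HasDerivAt p (f s - p s ^ 2) s)
    (hP : ∀ s, 0 ≤ s → HasDerivAt P (F s - P s ^ 2) s)
    (h0 : ∀ v, p 0 * ‖v‖ ^ 2 ≤ inner ℝ (M.U x v) v ∧ inner ℝ (M.U x v) v ≤ P 0 * ‖v‖ ^ 2)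
    {s : ℝ} (hs : 0 ≤ s) (v : E2) :
    p s * ‖v‖ ^ 2 ≤ inner ℝ (M.U (L.φ s x) v) v ∧
      inner ℝ (M.U (L.φ s x) v) v ≤ P s * ‖v‖ ^ 2 := by
  refine ric_between (U := fun s => M.U (L.φ s x)) (K := fun s => -M.K (L.φ s x))
    (f := f) (F := F) (fun s _ => ?_) (fun s v w => M.U_symm _ v w) ?_ hp hP ?_
    (D := fun s => H77.Dt L s x) (fun s _ v => ?_) (fun s _ => ?_) hs v
  · refine (M.riccati x s).congr_deriv ?_
    abel
  · intro s hs v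
    have h := hK s hs v
    change f s * ‖v‖ ^ 2 ≤ inner ℝ (-(M.K (L.φ s x) v)) v ∧
      inner ℝ (-(M.K (L.φ s x) v)) v ≤ F s * ‖v‖ ^ 2
    rw [inner_neg_left]
    exact h
  · intro v
    change p 0 * ‖v‖ ^ 2 ≤ inner ℝ (M.U (L.φ 0 x) v) v ∧
      inner ℝ (M.U (L.φ 0 x) v) v ≤ P 0 * ‖v‖ ^ 2
    rw [L.φ_zero]
    exact h0 v
  · exact ((ContinuousLinearMap.apply ℝ E2 v).hasFDerivAt.comp_hasDerivAt s
      (H77.hasDerivAt_Dt M x s))
  · intro w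
    refine ⟨H77.Dt L (-s) (L.φ s x) w, ?_⟩
    have h := H77.Dt_comp_neg L s (L.φ s x)
    rw [← L.φ_add, neg_add_cancel, L.φ_zero] at h
    exact DFunLike.congr_fun h w

end Vale.Agent.P207.N4.H391.RicM
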